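/-
Helper62 — project S0175, package RG1 (+RG2), CORE: the apex shape function `wA` and the inverse
`Winv` of `shb`, proved from an explicit record `RG1Deps s` of the shape-calculus facts (packages
SH-a, SH-b) that are consumed.  The Spec-verbatim statements are in `Helper62/Geom/RG1.lean`.
-/
import Mathlib
import Crest.Agent.Helper32.GeomDefs
import Crest.Agent.Helper3.Geom.RG0

set_option autoImplicit false
set_option linter.unusedSectionVars false
open MeasureTheory Set Filter Topology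
open scoped ENNReal ContDiff
open Crest.AnalysisR.OT
open Crest.Agent.Helper32

namespace Crest.Agent.Helper62

/-! ### generic helpers -/

/-- the partial derivative in the first variable as a value of the Fréchet derivative -/
theorem fderiv_apply_one_zero {X : Type*} [NormedAddCommGroup X] [NormedSpace ℝ X]
    (F : ℝ × X → ℝ) (w : ℝ) (x : X) (hF : DifferentiableAt ℝ F (w, x)) :
    fderiv ℝ F (w, x) (1, 0) = deriv (fun v => F (v, x)) w := by
  have hγ : HasDerivAt (fun v : ℝ => (v, x)) ((1 : ℝ), (0 : X)) w :=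
    (hasDerivAt_id w).prodMk (hasDerivAt_const w x)
  have := hF.hasFDerivAt.comp_hasDerivAt w hγ
  exact this.deriv.symm

theorem isOpen_wdom {X : Type*} [TopologicalSpace X] (a : ℝ) :
    IsOpen {p : ℝ × X | a < p.1 ∧ 2 * p.1 ^ 2 < 1} := by
  apply IsOpen.inter
  · exact isOpen_lt continuous_const continuous_fst
  · exact isOpen_lt (continuous_const.mul (continuous_fst.pow 2)) continuous_const

/-- The shape-calculus facts (packages SH-a / SH-b, specialised to `s`) used by RG1. -/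
structure RG1Deps (s : ℝ) : Prop where
  wMin_pos : 0 < wMin s
  wMin_lt : 2 * (wMin s) ^ 2 < 1
  shH_wMin : shH s (wMin s) = 0
  shH_pos : ∀ w, wMin s < w → 2 * w ^ 2 < 1 → 0 < shH s w
  shape_contDiffAt : ∀ w, 0 < w → 2 * w ^ 2 < 1 →
    ContDiffAt ℝ ∞ (shL23 s) w ∧ ContDiffAt ℝ ∞ (shH s) w ∧ ContDiffAt ℝ ∞ (shb s) w
  shF_strictAnti : ∀ ζ e, 0 ≤ ζ → 0 ≤ e → ∀ w w', 0 < w → w < w' → 2 * w' ^ 2 < 1 →
    shF s w' ζ e < shF s w ζ e
  shF_deriv_neg : ∀ ζ e, 0 ≤ ζ → 0 ≤ e → ∀ w, 0 < w → 2 * w ^ 2 < 1 →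
    deriv (fun v => shF s v ζ e) w < 0
  shb_strictAnti : ∀ w w', wMin s ≤ w → w < w' → 2 * w' ^ 2 < 1 → shb s w' < shb s w
  shb_deriv_neg : ∀ w, wMin s ≤ w → 2 * w ^ 2 < 1 → deriv (shb s) w < 0

/-! ### the apex equation as a function of `(w, x)` -/

/-- `shF` as a function on `ℝ × MS k` -/
noncomputable def Fapex {k : ℕ} (s : ℝ) (p : ℝ × MS k) : ℝ :=
  shF s p.1 (‖p.2.1‖ ^ 2) (‖p.2.2‖ ^ 2)

theorem Fapex_contDiffOn {k : ℕ} (s : ℝ) (D : RG1Deps s) :
    ContDiffOn ℝ ∞ (Fapex (k := k) s) {p : ℝ × MS k | 0 < p.1 ∧ 2 * p.1 ^ 2 < 1} := by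
  intro p hp
  apply ContDiffAt.contDiffWithinAt
  obtain ⟨hp1, hp2⟩ := hp
  have hH : ContDiffAt ℝ ∞ (fun q : ℝ × MS k => shH s q.1) p :=
    (D.shape_contDiffAt p.1 hp1 hp2).2.1.comp p contDiffAt_fst
  have h1 : ContDiffAt ℝ ∞ (fun q : ℝ × MS k => q.1) p := contDiffAt_fst
  have hz : ContDiffAt ℝ ∞ (fun q : ℝ × MS k => ‖q.2.1‖ ^ 2) p :=
    ((contDiff_norm_sq ℝ).comp (contDiff_fst.comp contDiff_snd)).contDiffAt
  have he : ContDiffAt ℝ ∞ (fun q : ℝ × MS k => ‖q.2.2‖ ^ 2) p :=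
    ((contDiff_norm_sq ℝ).comp (contDiff_snd.comp contDiff_snd)).contDiffAt
  have hd1 : (4 * p.1 ^ 4) ≠ 0 := by positivity
  have hd2 : (2 * p.1 ^ 2 + 1) ^ 2 ≠ 0 := by positivity
  unfold Fapex shF
  exact ((hz.div (contDiffAt_const.mul (h1.pow 4)) hd1).add
    ((contDiffAt_const.mul he).div (((contDiffAt_const.mul (h1.pow 2)).add contDiffAt_const).pow 2)
      hd2)).sub hH


theorem isOpen_Fdom {k : ℕ} : IsOpen {p : ℝ × MS k | 0 < p.1 ∧ 2 * p.1 ^ 2 < 1} :=
  isOpen_wdom 0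

/-- continuity of `w ↦ shF s w ζ e` on `(0, 1/√2)` -/
theorem shF_continuousAt (s : ℝ) (D : RG1Deps s) (ζ e w : ℝ) (hw : 0 < w) (hw' : 2 * w ^ 2 < 1) :
    ContinuousAt (fun v => shF s v ζ e) w := by
  have hH : ContinuousAt (shH s) w := (D.shape_contDiffAt w hw hw').2.1.continuousAt
  have hd1 : (4 * w ^ 4) ≠ 0 := by positivity
  have hd2 : (2 * w ^ 2 + 1) ^ 2 ≠ 0 := by positivity
  unfold shF
  have c1 : ContinuousAt (fun v : ℝ => ζ / (4 * v ^ 4)) w :=
    continuousAt_const.div (continuousAt_const.mul (continuousAt_id.pow 4)) hd1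
  have c2 : ContinuousAt (fun v : ℝ => 4 * e / (2 * v ^ 2 + 1) ^ 2) w :=
    continuousAt_const.div
      (((continuousAt_const.mul (continuousAt_id.pow 2)).add continuousAt_const).pow 2) hd2
  exact (c1.add c2).sub hH

section RG
variable {k : ℕ} (s w2 : ℝ) (D : RG1Deps s) (hw2 : wMin s < w2) (hw2' : 2 * w2 ^ 2 < 1)
include D hw2 hw2'

/-- existence and properties of the root of the apex equation -/
theorem wroot_spec (ζ e : ℝ) (hζ : 0 ≤ ζ) (he : 0 ≤ e) (hpos : 0 < ζ + e)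
    (hneg : shF s w2 ζ e < 0) :
    wMin s < wroot s w2 ζ e ∧ wroot s w2 ζ e < w2 ∧ shF s (wroot s w2 ζ e) ζ e = 0 := by
  have hm := D.wMin_pos
  have hm' := D.wMin_lt
  have hex : ∃ w, wMin s < w ∧ w < w2 ∧ shF s w ζ e = 0 := by
    have hcont : ContinuousOn (fun v => shF s v ζ e) (Icc (wMin s) w2) := by
      intro v hv
      apply ContinuousAt.continuousWithinAt
      have hv0 : 0 < v := lt_of_lt_of_le hm hv.1
      have hv1 : 2 * v ^ 2 < 1 := by
        have : v ^ 2 ≤ w2 ^ 2 := pow_le_pow_left₀ hv0.le hv.2 2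
        linarith
      exact shF_continuousAt s D ζ e v hv0 hv1
    have hpos' : 0 < shF s (wMin s) ζ e := by
      unfold shF
      rw [D.shH_wMin, sub_zero]
      have h1 : 0 ≤ ζ / (4 * wMin s ^ 4) := by positivity
      have h2 : 0 ≤ 4 * e / (2 * wMin s ^ 2 + 1) ^ 2 := by positivity
      rcases hζ.lt_or_eq with hζ' | hζ'
      · have : 0 < ζ / (4 * wMin s ^ 4) := by positivity
        linarith
      · have he' : 0 < e := by linarith
        have : 0 < 4 * e / (2 * wMin s ^ 2 + 1) ^ 2 := by positivity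
        linarith
    have := intermediate_value_Ioo' hw2.le hcont
    obtain ⟨w, ⟨h1, h2⟩, h3⟩ := this (show (0:ℝ) ∈ Ioo _ _ from ⟨hneg, hpos'⟩)
    exact ⟨w, h1, h2, h3⟩
  unfold wroot
  rw [dif_pos hex]
  exact Classical.choose_spec hex

/-- the junk value of the root function -/
theorem wroot_eq_wMin (ζ e : ℝ) (hζ : 0 ≤ ζ) (he : 0 ≤ e)
    (h : ¬ (0 < ζ + e ∧ shF s w2 ζ e < 0)) : wroot s w2 ζ e = wMin s := by
  have hm := D.wMin_pos
  have hno : ¬ ∃ w, wMin s < w ∧ w < w2 ∧ shF s w ζ e = 0 := by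
    rintro ⟨w, h1, h2, h3⟩
    have hw0 : 0 < w := lt_trans hm h1
    have hw1 : 2 * w ^ 2 < 1 := by
      have : w ^ 2 ≤ w2 ^ 2 := pow_le_pow_left₀ hw0.le h2.le 2
      linarith
    by_cases hp : 0 < ζ + e
    · have h4 : ¬ shF s w2 ζ e < 0 := fun h' => h ⟨hp, h'⟩
      have := D.shF_strictAnti ζ e hζ he w w2 hw0 h2 hw2'
      linarith
    · have hζ0 : ζ = 0 := by linarith
      have he0 : e = 0 := by linarith
      have hH := D.shH_pos w h1 hw1
      rw [hζ0, he0] at h3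
      unfold shF at h3
      simp at h3
      linarith
  unfold wroot
  rw [dif_neg hno]

/-- the set on which `wA` is a genuine root -/
def Droot {k : ℕ} (s w2 : ℝ) : Set (MS k) :=
  {x | 0 < ‖x.1‖ ^ 2 + ‖x.2‖ ^ 2 ∧ shF s w2 (‖x.1‖ ^ 2) (‖x.2‖ ^ 2) < 0}

omit D hw2 hw2' in
theorem continuous_shF_w2 : Continuous fun x : MS k => shF s w2 (‖x.1‖ ^ 2) (‖x.2‖ ^ 2) := by
  unfold shF
  fun_prop

omit D hw2 hw2' in
theorem isOpen_Droot : IsOpen (Droot (k := k) s w2) := by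
  apply IsOpen.inter
  · exact isOpen_lt continuous_const
      (show Continuous fun x : MS k => ‖x.1‖ ^ 2 + ‖x.2‖ ^ 2 by fun_prop)
  · exact isOpen_lt (continuous_shF_w2 s w2) continuous_const

omit D hw2 hw2' in
theorem Adom_subset_Droot : Adom (k := k) s w2 ⊆ Droot s w2 := by
  rintro x ⟨hx1, hx2⟩
  refine ⟨?_, hx2⟩
  have : 0 < ‖x.1‖ := norm_pos_iff.mpr hx1
  positivity

theorem wA_spec_Droot (x : MS k) (hx : x ∈ Droot s w2) :
    wMin s < wA s w2 x ∧ wA s w2 x < w2 ∧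
      shF s (wA s w2 x) (‖x.1‖ ^ 2) (‖x.2‖ ^ 2) = 0 :=
  wroot_spec s w2 D hw2 hw2' _ _ (by positivity) (by positivity) hx.1 hx.2

theorem wA_eq_wMin (x : MS k) (hx : x ∉ Droot s w2) : wA s w2 x = wMin s :=
  wroot_eq_wMin s w2 D hw2 hw2' _ _ (by positivity) (by positivity) hx

theorem wA_contDiffAt_Droot (x₀ : MS k) (hx : x₀ ∈ Droot s w2) :
    ContDiffAt ℝ ∞ (wA (k := k) s w2) x₀ := by
  have hm := D.wMin_pos
  refine Crest.Agent.Helper3.contDiffAt_root (Fapex (k := k) s) {p : ℝ × MS k | 0 < p.1 ∧ 2 * p.1 ^ 2 < 1}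
    isOpen_Fdom (Fapex_contDiffOn s D) ?_ ?_ (wA s w2) x₀ ?_
  · -- injectivity in `w`
    intro w w' x hw hw' heq
    by_contra hne
    rcases lt_or_gt_of_ne hne with hlt | hlt
    · have := D.shF_strictAnti (‖x.1‖ ^ 2) (‖x.2‖ ^ 2) (by positivity) (by positivity)
        w w' hw.1 hlt hw'.2
      unfold Fapex at heq
      simp only at heq
      linarith
    · have := D.shF_strictAnti (‖x.1‖ ^ 2) (‖x.2‖ ^ 2) (by positivity) (by positivity)
        w' w hw'.1 hlt hw.2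
      unfold Fapex at heq
      simp only at heq
      linarith
  · -- nonvanishing partial derivative
    rintro ⟨w, x⟩ hp
    have hdiff : DifferentiableAt ℝ (Fapex (k := k) s) (w, x) :=
      ((Fapex_contDiffOn s D).contDiffAt (isOpen_Fdom.mem_nhds hp)).differentiableAt (by simp)
    rw [fderiv_apply_one_zero _ w x hdiff]
    have := D.shF_deriv_neg (‖x.1‖ ^ 2) (‖x.2‖ ^ 2) (by positivity) (by positivity)
      w hp.1 hp.2
    exact ne_of_lt this
  · -- `wA` is a root near `x₀`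
    filter_upwards [(isOpen_Droot s w2).mem_nhds hx] with x hx'
    obtain ⟨h1, h2, h3⟩ := wA_spec_Droot s w2 D hw2 hw2' x hx'
    have h0 : 0 < wA s w2 x := lt_trans hm h1
    refine ⟨⟨h0, ?_⟩, h3⟩
    have : wA s w2 x ^ 2 ≤ w2 ^ 2 := pow_le_pow_left₀ h0.le h2.le 2
    show 2 * wA s w2 x ^ 2 < 1
    linarith

omit D hw2 hw2' in
theorem isOpen_Adom_of : IsOpen (Adom (k := k) s w2) := by
  apply IsOpen.inter
  · exact isOpen_ne_fun continuous_fst continuous_const
  · exact isOpen_lt (continuous_shF_w2 s w2) continuous_const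

/-- (RG1) the apex shape function -/
theorem wA_spec_of (x : MS k) (hx : x ∈ Adom s w2) :
    wMin s < wA s w2 x ∧ wA s w2 x < w2 ∧
      shF s (wA s w2 x) (‖x.1‖ ^ 2) (‖x.2‖ ^ 2) = 0 :=
  wA_spec_Droot s w2 D hw2 hw2' x (Adom_subset_Droot s w2 hx)

theorem wA_contDiffOn_of : ContDiffOn ℝ ∞ (wA (k := k) s w2) (Adom s w2) := fun x hx =>
  (wA_contDiffAt_Droot s w2 D hw2 hw2' x (Adom_subset_Droot s w2 hx)).contDiffWithinAt

theorem wA_measurable_of : Measurable (wA (k := k) s w2) := by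
  classical
  have hcont : ContinuousOn (wA (k := k) s w2) (Droot s w2) := fun x hx =>
    (wA_contDiffAt_Droot s w2 D hw2 hw2' x hx).continuousAt.continuousWithinAt
  have hpw : wA (k := k) s w2 = (Droot s w2).piecewise (wA s w2) (fun _ => wMin s) := by
    ext x
    by_cases hx : x ∈ Droot s w2
    · simp [Set.piecewise, hx]
    · simp [Set.piecewise, hx, wA_eq_wMin s w2 D hw2 hw2' x hx]
  rw [hpw]
  exact hcont.measurable_piecewise continuousOn_const (isOpen_Droot s w2).measurableSet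

/-- the root property of `Winv` -/
theorem Winv_root (τ : ℝ) (h : ∃ w, wMin s < w ∧ w < w2 ∧ shb s w = τ) :
    wMin s < Winv s w2 τ ∧ Winv s w2 τ < w2 ∧ shb s (Winv s w2 τ) = τ := by
  unfold Winv
  rw [dif_pos h]
  exact Classical.choose_spec h

/-- `shb` is injective on `[wMin s, 1/√2)` -/
theorem shb_inj (w w' : ℝ) (hw : wMin s ≤ w) (hw1 : 2 * w ^ 2 < 1) (hw' : wMin s ≤ w')
    (hw1' : 2 * w' ^ 2 < 1) (h : shb s w = shb s w') : w = w' := by
  by_contra hne
  rcases lt_or_gt_of_ne hne with hlt | hlt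
  · have := D.shb_strictAnti w w' hw hlt hw1'
    linarith
  · have := D.shb_strictAnti w' w hw' hlt hw1
    linarith

/-- `shb` as a function on `ℝ × ℝ`, minus the second variable -/
noncomputable def Fbase (s : ℝ) (p : ℝ × ℝ) : ℝ := shb s p.1 - p.2

omit hw2 hw2' in
theorem Fbase_contDiffOn :
    ContDiffOn ℝ ∞ (Fbase s) {p : ℝ × ℝ | wMin s < p.1 ∧ 2 * p.1 ^ 2 < 1} := by
  intro p hp
  apply ContDiffAt.contDiffWithinAt
  have hp0 : 0 < p.1 := lt_trans (D.wMin_pos) hp.1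
  have hb : ContDiffAt ℝ ∞ (fun q : ℝ × ℝ => shb s q.1) p :=
    (D.shape_contDiffAt p.1 hp0 hp.2).2.2.comp p contDiffAt_fst
  unfold Fbase
  exact hb.sub contDiffAt_snd

/-- (RG2) the inverse of `shb` -/
theorem Winv_spec_of (w : ℝ) (hw : wMin s < w) (hw' : w < w2) :
    Winv s w2 (shb s w) = w ∧ ContDiffAt ℝ ∞ (Winv s w2) (shb s w) := by
  have hm := D.wMin_pos
  have hm' := D.wMin_lt
  have hw0 : 0 < w := lt_trans hm hw
  have hsq : ∀ v : ℝ, 0 < v → v ≤ w2 → 2 * v ^ 2 < 1 := by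
    intro v hv0 hv
    have : v ^ 2 ≤ w2 ^ 2 := pow_le_pow_left₀ hv0.le hv 2
    linarith
  have hw1 : 2 * w ^ 2 < 1 := hsq w hw0 hw'.le
  constructor
  · obtain ⟨h1, h2, h3⟩ := Winv_root s w2 D hw2 hw2' (shb s w) ⟨w, hw, hw', rfl⟩
    exact shb_inj s w2 D hw2 hw2' _ _ h1.le (hsq _ (lt_trans hm h1) h2.le) hw.le hw1 h3
  · refine Crest.Agent.Helper3.contDiffAt_root (Fbase s) {p : ℝ × ℝ | wMin s < p.1 ∧ 2 * p.1 ^ 2 < 1}
      (isOpen_wdom (wMin s)) (Fbase_contDiffOn s D) ?_ ?_ (Winv s w2) (shb s w) ?_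
    · intro v v' τ hv hv' heq
      unfold Fbase at heq
      simp only at heq
      exact shb_inj s w2 D hw2 hw2' v v' hv.1.le hv.2 hv'.1.le hv'.2 (by linarith)
    · rintro ⟨v, τ⟩ hp
      have hdiff : DifferentiableAt ℝ (Fbase s) (v, τ) :=
        ((Fbase_contDiffOn s D).contDiffAt ((isOpen_wdom (wMin s)).mem_nhds hp)).differentiableAt
          (by simp)
      rw [fderiv_apply_one_zero _ v τ hdiff]
      have hd : deriv (fun v' => Fbase s (v', τ)) v = deriv (shb s) v := by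
        show deriv (fun v' => shb s v' - τ) v = deriv (shb s) v
        rw [deriv_sub_const]
      rw [hd]
      exact ne_of_lt (D.shb_deriv_neg v hp.1.le hp.2)
    · have hlo : shb s w2 < shb s w := D.shb_strictAnti w w2 hw.le hw' hw2'
      have hhi : shb s w < shb s (wMin s) := D.shb_strictAnti (wMin s) w le_rfl hw hw1
      have hcont : ContinuousOn (shb s) (Icc (wMin s) w2) := by
        intro v hv
        have hv0 : 0 < v := lt_of_lt_of_le hm hv.1
        exact (D.shape_contDiffAt v hv0 (hsq v hv0 hv.2)).2.2.continuousAt.continuousWithinAt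
      have hivt := intermediate_value_Ioo' hw2.le hcont
      filter_upwards [Ioo_mem_nhds hlo hhi] with τ hτ
      obtain ⟨v, ⟨hv1, hv2⟩, hv3⟩ := hivt hτ
      obtain ⟨h1, h2, h3⟩ := Winv_root s w2 D hw2 hw2' τ ⟨v, hv1, hv2, hv3⟩
      refine ⟨⟨h1, hsq _ (lt_trans hm h1) h2.le⟩, ?_⟩
      unfold Fbase
      simp only
      linarith

end RG

end Crest.Agent.Helper62
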