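/-
Helper62 — project S0175: shape calculus (statements of package SH-a, verbatim from
`Crest.Agent.Helper32.Spec`), second/fallback proof.  Key normal form:
`shH s w = (shP w)^(-b) - (w^2)^(-b)/4`, `b = 2/(s+2)`.
-/
import Mathlib
import Crest.Agent.Helper32.GeomDefs

set_option autoImplicit false
open Set Filter Topology
open scoped ContDiff
open Crest.Agent.Helper32

namespace Crest.Agent.Helper62.SHa

theorem shP_pos (w : ℝ) (hw' : 2 * w ^ 2 < 1) : 0 < shP w := by unfold shP; linarith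

theorem shP_le_one (w : ℝ) : shP w ≤ 1 := by unfold shP; nlinarith [sq_nonneg w]

theorem shL12_sq' (s w : ℝ) (hw' : 2 * w ^ 2 < 1) :
    shL12 s w ^ 2 = shP w ^ (-(2 / (s + 2))) := by
  unfold shL12
  rw [← Real.rpow_natCast, ← Real.rpow_mul (shP_pos w hw').le]
  congr 1
  push_cast
  ring

theorem shL23_sq' (s w : ℝ) (hw : 0 < w) :
    shL23 s w ^ 2 = (w ^ 2) ^ (-(2 / (s + 2))) := by
  unfold shL23
  rw [← Real.rpow_natCast, ← Real.rpow_mul hw.le, ← Real.rpow_natCast w 2,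
    ← Real.rpow_mul hw.le]
  congr 1
  push_cast
  ring

/-- normal form of the squared height -/
theorem shH_eq (s w : ℝ) (hw : 0 < w) (hw' : 2 * w ^ 2 < 1) :
    shH s w = shP w ^ (-(2 / (s + 2))) - (w ^ 2) ^ (-(2 / (s + 2))) / 4 := by
  unfold shH
  rw [shL12_sq' s w hw', shL23_sq' s w hw]

theorem wMin_pos (s : ℝ) (hs : 0 < s) : 0 < wMin s := by
  unfold wMin
  apply Real.sqrt_pos.mpr
  have : (0:ℝ) < (2:ℝ) ^ (s + 2) := Real.rpow_pos_of_pos two_pos _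
  positivity

theorem wMin_sq (s : ℝ) : wMin s ^ 2 = 1 / ((2:ℝ) ^ (s + 2) + 2) := by
  unfold wMin
  have : (0:ℝ) < (2:ℝ) ^ (s + 2) := Real.rpow_pos_of_pos two_pos _
  rw [Real.sq_sqrt (by positivity)]

theorem wMin_lt (s : ℝ) (hs : 0 < s) : 2 * (wMin s) ^ 2 < 1 := by
  rw [wMin_sq]
  have h : (0:ℝ) < (2:ℝ) ^ (s + 2) := Real.rpow_pos_of_pos two_pos _
  rw [mul_one_div, div_lt_one (by positivity)]
  linarith

/-- `(2^(s+2))^(-(2/(s+2))) = 1/4` -/
theorem two_rpow_aux (s : ℝ) (hs : 0 < s) : ((2:ℝ) ^ (s + 2)) ^ (-(2 / (s + 2))) = 1 / 4 := by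
  have hs2 : (s + 2) ≠ 0 := by positivity
  rw [← Real.rpow_mul (by norm_num : (0:ℝ) ≤ 2)]
  have : (s + 2) * -(2 / (s + 2)) = -2 := by field_simp
  rw [this, Real.rpow_neg (by norm_num : (0:ℝ) ≤ 2)]
  norm_num

theorem shH_wMin (s : ℝ) (hs : 0 < s) : shH s (wMin s) = 0 := by
  have hm := wMin_pos s hs
  have hm' := wMin_lt s hs
  rw [shH_eq s _ hm hm']
  have h2 : (0:ℝ) < (2:ℝ) ^ (s + 2) := Real.rpow_pos_of_pos two_pos _
  have hP : shP (wMin s) = (2:ℝ) ^ (s + 2) * wMin s ^ 2 := by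
    unfold shP
    rw [wMin_sq]
    field_simp
    ring
  rw [hP, Real.mul_rpow h2.le (by positivity), two_rpow_aux s hs]
  ring

theorem shH_pos (s : ℝ) (hs : 0 < s) (w : ℝ) (hw : wMin s < w) (hw' : 2 * w ^ 2 < 1) :
    0 < shH s w := by
  have hm := wMin_pos s hs
  have hw0 : 0 < w := lt_trans hm hw
  rw [shH_eq s w hw0 hw']
  have h2 : (0:ℝ) < (2:ℝ) ^ (s + 2) := Real.rpow_pos_of_pos two_pos _
  have hb : -(2 / (s + 2)) < 0 := by
    have : 0 < 2 / (s + 2) := by positivity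
    linarith
  -- `shP w < 2^(s+2) * w^2`
  have hlt : shP w < (2:ℝ) ^ (s + 2) * w ^ 2 := by
    have hsq : wMin s ^ 2 < w ^ 2 := pow_lt_pow_left₀ hw hm.le (by norm_num)
    rw [wMin_sq, div_lt_iff₀ (by positivity)] at hsq
    unfold shP
    nlinarith
  have h1 := Real.rpow_lt_rpow_of_neg (shP_pos w hw') hlt hb
  rw [Real.mul_rpow h2.le (by positivity), two_rpow_aux s hs] at h1
  linarith

theorem shL12_ge_one (s : ℝ) (hs : 0 < s) (w : ℝ) (hw : 0 < w) (hw' : 2 * w ^ 2 < 1) :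
    1 ≤ shL12 s w := by
  unfold shL12
  apply Real.one_le_rpow_of_pos_of_le_one_of_nonpos (shP_pos w hw') (shP_le_one w)
  have : 0 < 1 / (s + 2) := by positivity
  linarith

theorem shL23_ge_one (s : ℝ) (hs : 0 < s) (w : ℝ) (hw : 0 < w) (hw' : 2 * w ^ 2 < 1) :
    1 ≤ shL23 s w := by
  unfold shL23
  have hw1 : w ≤ 1 := by nlinarith
  apply Real.one_le_rpow_of_pos_of_le_one_of_nonpos hw hw1
  have : 0 < 2 / (s + 2) := by positivity
  linarith

theorem shG_nonneg (s : ℝ) (hs : 0 < s) (w : ℝ) (hw : 0 < w) (hw' : 2 * w ^ 2 < 1) :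
    0 ≤ shG s w := by
  unfold shG
  have h1 : 0 ≤ shP w ^ (s / (s + 2)) := Real.rpow_nonneg (shP_pos w hw').le _
  have h2 : 0 ≤ w ^ (2 * s / (s + 2)) := Real.rpow_nonneg hw.le _
  linarith

theorem shG_le_three (s : ℝ) (hs : 0 < s) (w : ℝ) (hw : 0 < w) (hw' : 2 * w ^ 2 < 1) :
    shG s w ≤ 3 := by
  unfold shG
  have hw1 : w ≤ 1 := by nlinarith
  have h1 : shP w ^ (s / (s + 2)) ≤ 1 :=
    Real.rpow_le_one (shP_pos w hw').le (shP_le_one w) (by positivity)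
  have h2 : w ^ (2 * s / (s + 2)) ≤ 1 := Real.rpow_le_one hw.le hw1 (by positivity)
  linarith

theorem contDiffAt_shP (w : ℝ) : ContDiffAt ℝ ∞ shP w := by
  unfold shP
  exact contDiffAt_const.sub (contDiffAt_const.mul (contDiffAt_id.pow 2))

/-- smoothness of the shape functions on `(0, 1/√2)` -/
theorem shape_contDiffAt (s : ℝ) (hs : 0 < s) (w : ℝ) (hw : 0 < w) (hw' : 2 * w ^ 2 < 1) :
    ContDiffAt ℝ ∞ (shL23 s) w ∧ ContDiffAt ℝ ∞ (shH s) w ∧ ContDiffAt ℝ ∞ (shb s) w := by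
  have h23 : ContDiffAt ℝ ∞ (shL23 s) w := by
    unfold shL23
    exact Real.contDiffAt_rpow_const_of_ne hw.ne'
  have h12 : ContDiffAt ℝ ∞ (shL12 s) w := by
    unfold shL12
    exact (contDiffAt_shP w).rpow_const_of_ne (shP_pos w hw').ne'
  have hH : ContDiffAt ℝ ∞ (shH s) w := by
    unfold shH
    exact (h12.pow 2).sub ((h23.pow 2).div_const 4)
  refine ⟨h23, hH, ?_⟩
  unfold shb
  exact ((h23.pow 2).div_const 4).add (((contDiffAt_shP w).pow 2).mul hH)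

/-- `shH` is strictly increasing on `(0, 1/√2)` -/
theorem shH_strictMono (s : ℝ) (hs : 0 < s) (w w' : ℝ) (hw : 0 < w) (hww' : w < w')
    (hw' : 2 * w' ^ 2 < 1) : shH s w < shH s w' := by
  have hw0' : 0 < w' := lt_trans hw hww'
  have hsq : w ^ 2 < w' ^ 2 := pow_lt_pow_left₀ hww' hw.le (by norm_num)
  have hw1 : 2 * w ^ 2 < 1 := by linarith
  rw [shH_eq s w hw hw1, shH_eq s w' hw0' hw']
  have hb : -(2 / (s + 2)) < 0 := by
    have : 0 < 2 / (s + 2) := by positivity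
    linarith
  have hP : shP w' < shP w := by unfold shP; linarith
  have h1 := Real.rpow_lt_rpow_of_neg (shP_pos w' hw') hP hb
  have h2 := Real.rpow_lt_rpow_of_neg (by positivity : (0:ℝ) < w ^ 2) hsq hb
  linarith

/-- the apex equation is strictly decreasing in the shape parameter -/
theorem shF_strictAnti (s : ℝ) (hs : 0 < s) (ζ e : ℝ) (hζ : 0 ≤ ζ) (he : 0 ≤ e) (w w' : ℝ)
    (hw : 0 < w) (hww' : w < w') (hw' : 2 * w' ^ 2 < 1) : shF s w' ζ e < shF s w ζ e := by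
  have hw0' : 0 < w' := lt_trans hw hww'
  have hH := shH_strictMono s hs w w' hw hww' hw'
  unfold shF
  have hsq : w ^ 2 < w' ^ 2 := pow_lt_pow_left₀ hww' hw.le (by norm_num)
  have h4 : w ^ 4 ≤ w' ^ 4 := pow_le_pow_left₀ hw.le hww'.le 4
  have h1 : ζ / (4 * w' ^ 4) ≤ ζ / (4 * w ^ 4) :=
    div_le_div_of_nonneg_left hζ (by positivity) (by linarith)
  have h2 : 4 * e / (2 * w' ^ 2 + 1) ^ 2 ≤ 4 * e / (2 * w ^ 2 + 1) ^ 2 := by
    apply div_le_div_of_nonneg_left (by positivity) (by positivity)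
    apply pow_le_pow_left₀ (by positivity)
    linarith
  linarith

/-- closed form of the derivative of `shH` -/
theorem hasDerivAt_shH (s : ℝ) (hs : 0 < s) (w : ℝ) (hw : 0 < w) (hw' : 2 * w ^ 2 < 1) :
    HasDerivAt (shH s)
      (8 * (1 / (s + 2)) * w * (shL12 s w) ^ 2 / shP w + (1 / (s + 2)) * (shL23 s w) ^ 2 / w) w := by
  have hp : 0 < shP w := shP_pos w hw'
  have hs2 : (s + 2) ≠ 0 := by positivity
  have hP : HasDerivAt shP (-4 * w) w := by
    have h := ((hasDerivAt_pow 2 w).const_mul 2).const_sub 1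
    have e : (-(2 * ((2:ℕ) * w ^ (2 - 1))) : ℝ) = -4 * w := by norm_num; ring
    rw [e] at h
    exact h
  have hL12 : HasDerivAt (shL12 s) (-4 * w * (-(1 / (s + 2))) * shP w ^ (-(1 / (s + 2)) - 1)) w :=
    hP.rpow_const (Or.inl hp.ne')
  have hL23 : HasDerivAt (shL23 s) (-(2 / (s + 2)) * w ^ (-(2 / (s + 2)) - 1)) w :=
    Real.hasDerivAt_rpow_const (Or.inl hw.ne')
  have hH : HasDerivAt (shH s)
      ((2:ℕ) * shL12 s w ^ (2 - 1) * (-4 * w * (-(1 / (s + 2))) * shP w ^ (-(1 / (s + 2)) - 1)) -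
        ((2:ℕ) * shL23 s w ^ (2 - 1) * (-(2 / (s + 2)) * w ^ (-(2 / (s + 2)) - 1))) / 4) w :=
    (hL12.pow 2).sub ((hL23.pow 2).div_const 4)
  convert hH using 1
  have e1 : shP w ^ (-(1 / (s + 2)) - 1) = shL12 s w / shP w := by
    unfold shL12; rw [Real.rpow_sub_one hp.ne']
  have e2 : w ^ (-(2 / (s + 2)) - 1) = shL23 s w / w := by
    unfold shL23; rw [Real.rpow_sub_one hw.ne']
  rw [e1, e2]
  field_simp
  ring

theorem shF_deriv_neg (s : ℝ) (hs : 0 < s) (ζ e : ℝ) (hζ : 0 ≤ ζ) (he : 0 ≤ e) (w : ℝ)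
    (hw : 0 < w) (hw' : 2 * w ^ 2 < 1) : deriv (fun v => shF s v ζ e) w < 0 := by
  have hp : 0 < shP w := shP_pos w hw'
  have hH := hasDerivAt_shH s hs w hw hw'
  have h1 : HasDerivAt (fun v : ℝ => ζ / (4 * v ^ 4)) (-ζ / w ^ 5) w := by
    have hd : HasDerivAt (fun v : ℝ => 4 * v ^ 4) (4 * ((4:ℕ) * w ^ (4 - 1))) w :=
      (hasDerivAt_pow 4 w).const_mul 4
    have hne : (4 * w ^ 4) ≠ 0 := by positivity
    have h := (hasDerivAt_const w ζ).div hd hne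
    have e : (0 * (4 * w ^ 4) - ζ * (4 * ((4:ℕ) * w ^ (4 - 1)))) / (4 * w ^ 4) ^ 2 = -ζ / w ^ 5 := by
      have hw5 : w ^ 5 ≠ 0 := by positivity
      rw [div_eq_div_iff (by positivity) hw5]
      norm_num
      ring
    exact h.congr_deriv e
  have h2 : HasDerivAt (fun v : ℝ => 4 * e / (2 * v ^ 2 + 1) ^ 2)
      (-(32 * e * w) / (2 * w ^ 2 + 1) ^ 3) w := by
    have hd0 : HasDerivAt (fun v : ℝ => 2 * v ^ 2 + 1) (2 * ((2:ℕ) * w ^ (2 - 1))) w :=
      ((hasDerivAt_pow 2 w).const_mul 2).add_const 1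
    have hd : HasDerivAt (fun v : ℝ => (2 * v ^ 2 + 1) ^ 2)
        ((2:ℕ) * (2 * w ^ 2 + 1) ^ (2 - 1) * (2 * ((2:ℕ) * w ^ (2 - 1)))) w := hd0.pow 2
    have hne : (2 * w ^ 2 + 1) ^ 2 ≠ 0 := by positivity
    have h := (hasDerivAt_const w (4 * e)).div hd hne
    have e' : (0 * (2 * w ^ 2 + 1) ^ 2 - 4 * e * ((2:ℕ) * (2 * w ^ 2 + 1) ^ (2 - 1) *
        (2 * ((2:ℕ) * w ^ (2 - 1))))) / ((2 * w ^ 2 + 1) ^ 2) ^ 2 =
        -(32 * e * w) / (2 * w ^ 2 + 1) ^ 3 := by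
      have h3 : (2 * w ^ 2 + 1) ^ 3 ≠ 0 := by positivity
      rw [div_eq_div_iff (by positivity) h3]
      norm_num
      ring
    exact h.congr_deriv e'
  have hF : HasDerivAt (fun v => shF s v ζ e)
      (-ζ / w ^ 5 + -(32 * e * w) / (2 * w ^ 2 + 1) ^ 3 -
        (8 * (1 / (s + 2)) * w * (shL12 s w) ^ 2 / shP w + (1 / (s + 2)) * (shL23 s w) ^ 2 / w)) w := by
    unfold shF
    exact (h1.add h2).sub hH
  rw [hF.deriv]
  have hL12 : 0 < shL12 s w := by unfold shL12; exact Real.rpow_pos_of_pos hp _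
  have hL23 : 0 < shL23 s w := by unfold shL23; exact Real.rpow_pos_of_pos hw _
  have t1 : -ζ / w ^ 5 ≤ 0 := by
    apply div_nonpos_of_nonpos_of_nonneg (by linarith) (by positivity)
  have t2 : -(32 * e * w) / (2 * w ^ 2 + 1) ^ 3 ≤ 0 := by
    apply div_nonpos_of_nonpos_of_nonneg
    · have : 0 ≤ 32 * e * w := by positivity
      linarith
    · positivity
  have t3 : 0 < 8 * (1 / (s + 2)) * w * (shL12 s w) ^ 2 / shP w := by positivity
  have t4 : 0 < (1 / (s + 2)) * (shL23 s w) ^ 2 / w := by positivity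
  linarith

end Crest.Agent.Helper62.SHa
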