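/-
Helper62 — project S0175: the derivative of `shb` in closed form,
`shb'(w) = -(2/(s+2))·w·L23² - 8·(1 - 1/(s+2))·w·P·H`, hence `shb' < 0` wherever `H ≥ 0`
(fallback / second proof for the SH-b statements shb_deriv_neg, shb_strictAnti).
-/
import Mathlib
import Crest.Agent.Helper32.GeomDefs

set_option autoImplicit false
open Set
open Crest.Agent.Helper32

namespace Crest.Agent.Helper62

/-- closed form of the derivative of `shb` -/
theorem hasDerivAt_shb (s : ℝ) (hs : 0 < s) (w : ℝ) (hw : 0 < w) (hw' : 2 * w ^ 2 < 1) :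
    HasDerivAt (shb s)
      (-(2 / (s + 2)) * w * (shL23 s w) ^ 2 - 8 * (1 - 1 / (s + 2)) * w * shP w * shH s w) w := by
  have hp : 0 < shP w := by unfold shP; linarith
  have hs2 : (s + 2) ≠ 0 := by positivity
  -- derivatives of the pieces
  have hP : HasDerivAt shP (-4 * w) w := by
    have h := ((hasDerivAt_pow 2 w).const_mul 2).const_sub 1
    have e : (-(2 * ((2:ℕ) * w ^ (2 - 1))) : ℝ) = -4 * w := by norm_num; ring
    rw [e] at h
    exact h
  have hL12 : HasDerivAt (shL12 s) (-4 * w * (-(1 / (s + 2))) * shP w ^ (-(1 / (s + 2)) - 1)) w :=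
    hP.rpow_const (Or.inl hp.ne')
  have hL23 : HasDerivAt (shL23 s) (-(2 / (s + 2)) * w ^ (-(2 / (s + 2)) - 1)) w :=
    Real.hasDerivAt_rpow_const (Or.inl hw.ne')
  have hH : HasDerivAt (shH s)
      ((2:ℕ) * shL12 s w ^ (2 - 1) * (-4 * w * (-(1 / (s + 2))) * shP w ^ (-(1 / (s + 2)) - 1)) -
        ((2:ℕ) * shL23 s w ^ (2 - 1) * (-(2 / (s + 2)) * w ^ (-(2 / (s + 2)) - 1))) / 4) w :=
    (hL12.pow 2).sub ((hL23.pow 2).div_const 4)
  have hb : HasDerivAt (shb s)
      (((2:ℕ) * shL23 s w ^ (2 - 1) * (-(2 / (s + 2)) * w ^ (-(2 / (s + 2)) - 1))) / 4 +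
        (((2:ℕ) * shP w ^ (2 - 1) * (-4 * w)) * shH s w + shP w ^ 2 *
          ((2:ℕ) * shL12 s w ^ (2 - 1) * (-4 * w * (-(1 / (s + 2))) * shP w ^ (-(1 / (s + 2)) - 1)) -
          ((2:ℕ) * shL23 s w ^ (2 - 1) * (-(2 / (s + 2)) * w ^ (-(2 / (s + 2)) - 1))) / 4))) w :=
    ((hL23.pow 2).div_const 4).add ((hP.pow 2).mul hH)
  convert hb using 1
  -- algebra
  have e1 : shP w ^ (-(1 / (s + 2)) - 1) = shL12 s w / shP w := by
    unfold shL12; rw [Real.rpow_sub_one hp.ne']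
  have e2 : w ^ (-(2 / (s + 2)) - 1) = shL23 s w / w := by
    unfold shL23; rw [Real.rpow_sub_one hw.ne']
  rw [e1, e2]
  have hH' : shH s w = shL12 s w ^ 2 - shL23 s w ^ 2 / 4 := rfl
  rw [hH']
  have hPw : shP w = 1 - 2 * w ^ 2 := rfl
  field_simp
  rw [hPw]
  ring


/-- `shb' < 0` wherever the squared height is nonnegative -/
theorem shb_deriv_neg_of (s : ℝ) (hs : 0 < s) (w : ℝ) (hw : 0 < w) (hw' : 2 * w ^ 2 < 1)
    (hH : 0 ≤ shH s w) : deriv (shb s) w < 0 := by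
  rw [(hasDerivAt_shb s hs w hw hw').deriv]
  have hp : 0 < shP w := by unfold shP; linarith
  have hL : 0 < shL23 s w := by unfold shL23; exact Real.rpow_pos_of_pos hw _
  have he : 0 < 2 / (s + 2) := by positivity
  have he' : 0 < 1 - 1 / (s + 2) := by
    have : 1 / (s + 2) < 1 := by
      rw [div_lt_one (by positivity)]; linarith
    linarith
  have h1 : 0 < 2 / (s + 2) * w * shL23 s w ^ 2 := by positivity
  have h2 : 0 ≤ 8 * (1 - 1 / (s + 2)) * w * shP w * shH s w := by positivity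
  linarith

/-- the statement of `Spec.shb_deriv_neg`, from positivity of `wMin` and of the squared height -/
theorem shb_deriv_neg_of' (s : ℝ) (hs : 0 < s) (hm : 0 < wMin s)
    (hH : ∀ v, wMin s ≤ v → 2 * v ^ 2 < 1 → 0 ≤ shH s v) (w : ℝ) (hw : wMin s ≤ w)
    (hw' : 2 * w ^ 2 < 1) : deriv (shb s) w < 0 :=
  shb_deriv_neg_of s hs w (lt_of_lt_of_le hm hw) hw' (hH w hw hw')

/-- the statement of `Spec.shb_strictAnti`, from positivity of `wMin` and of the squared height -/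
theorem shb_strictAnti_of (s : ℝ) (hs : 0 < s) (hm : 0 < wMin s)
    (hH : ∀ v, wMin s ≤ v → 2 * v ^ 2 < 1 → 0 ≤ shH s v) (w w' : ℝ) (hw : wMin s ≤ w)
    (hww' : w < w') (hw' : 2 * w' ^ 2 < 1) : shb s w' < shb s w := by
  have hw0 : 0 < w := lt_of_lt_of_le hm hw
  have hsq : ∀ v ∈ Icc w w', 0 < v ∧ 2 * v ^ 2 < 1 := by
    intro v hv
    have hv0 : 0 < v := lt_of_lt_of_le hw0 hv.1
    have : v ^ 2 ≤ w' ^ 2 := pow_le_pow_left₀ hv0.le hv.2 2
    exact ⟨hv0, by linarith⟩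
  have hanti : StrictAntiOn (shb s) (Icc w w') := by
    apply strictAntiOn_of_deriv_neg (convex_Icc w w')
    · intro v hv
      exact (hasDerivAt_shb s hs v (hsq v hv).1 (hsq v hv).2).continuousAt.continuousWithinAt
    · intro v hv
      rw [interior_Icc] at hv
      have hv' : v ∈ Icc w w' := ⟨hv.1.le, hv.2.le⟩
      exact shb_deriv_neg_of s hs v (hsq v hv').1 (hsq v hv').2
        (hH v (le_trans hw hv.1.le) (hsq v hv').2)
  exact hanti ⟨le_rfl, hww'.le⟩ ⟨hww'.le, le_rfl⟩ hww'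

/-- the statement of `Spec.shb_ge`, from `1 ≤ shL23` and nonnegativity of the squared height -/
theorem shb_ge_of (s : ℝ) (w : ℝ) (hw' : 2 * w ^ 2 < 1) (hL : 1 ≤ shL23 s w)
    (hH : 0 ≤ shH s w) : 1 / 4 ≤ shb s w := by
  unfold shb
  have hp : 0 < shP w := by unfold shP; linarith
  have h1 : 1 ≤ shL23 s w ^ 2 := by nlinarith
  have h2 : 0 ≤ shP w ^ 2 * shH s w := by positivity
  linarith

end Crest.Agent.Helper62
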