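/-
Helper62 — project S0175, package RG1 (+RG2): the apex shape function `wA` and the inverse `Winv`
of `shb` — statements verbatim from `Crest.Agent.Helper32.Spec` (isOpen_Adom, wA_spec,
wA_contDiffOn, wA_measurable, Winv_spec), obtained from `RG1Core` and the shape calculus.
-/
import Mathlib
import Crest.Agent.Helper32.GeomDefs
import Crest.Agent.Helper62.Geom.RG1Core
import Crest.Agent.Helper62.Geom.SHa
import Crest.Agent.Helper62.Geom.ShbDeriv

set_option autoImplicit false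
set_option linter.unusedSectionVars false
open MeasureTheory Set Filter Topology
open scoped ENNReal ContDiff
open Crest.AnalysisR.OT
open Crest.Agent.Helper32

namespace Crest.Agent.Helper62

/-- nonnegativity of the squared height on `[wMin s, 1/√2)` -/
theorem shH_nonneg_of_le (s : ℝ) (hs : 0 < s) (v : ℝ) (hv : wMin s ≤ v) (hv' : 2 * v ^ 2 < 1) :
    0 ≤ shH s v :=
  hv.lt_or_eq.elim (fun h => (SHa.shH_pos s hs v h hv').le)
    (fun h => by rw [← h, SHa.shH_wMin s hs])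

/-- (SH-b, verbatim) `shb` is strictly decreasing on `[wMin s, 1/√2)` -/
theorem shb_strictAnti (s : ℝ) (hs : 0 < s) (w w' : ℝ) (hw : wMin s ≤ w) (hww' : w < w')
    (hw' : 2 * w' ^ 2 < 1) : shb s w' < shb s w :=
  shb_strictAnti_of s hs (SHa.wMin_pos s hs) (shH_nonneg_of_le s hs) w w' hw hww' hw'

/-- (SH-b, verbatim) `shb' < 0` on `[wMin s, 1/√2)` -/
theorem shb_deriv_neg (s : ℝ) (hs : 0 < s) (w : ℝ) (hw : wMin s ≤ w) (hw' : 2 * w ^ 2 < 1) :
    deriv (shb s) w < 0 :=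
  shb_deriv_neg_of' s hs (SHa.wMin_pos s hs) (shH_nonneg_of_le s hs) w hw hw'

/-- (SH-b, verbatim) `shb ≥ 1/4` on `[wMin s, 1/√2)` -/
theorem shb_ge (s : ℝ) (hs : 0 < s) (w : ℝ) (hw : wMin s ≤ w) (hw' : 2 * w ^ 2 < 1) :
    1 / 4 ≤ shb s w :=
  shb_ge_of s w hw' (SHa.shL23_ge_one s hs w (lt_of_lt_of_le (SHa.wMin_pos s hs) hw) hw')
    (shH_nonneg_of_le s hs w hw hw')

/-- the shape-calculus facts consumed by RG1 -/
theorem rg1Deps (s : ℝ) (hs : 0 < s) : RG1Deps s where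
  wMin_pos := SHa.wMin_pos s hs
  wMin_lt := SHa.wMin_lt s hs
  shH_wMin := SHa.shH_wMin s hs
  shH_pos := SHa.shH_pos s hs
  shape_contDiffAt := SHa.shape_contDiffAt s hs
  shF_strictAnti := SHa.shF_strictAnti s hs
  shF_deriv_neg := SHa.shF_deriv_neg s hs
  shb_strictAnti := shb_strictAnti s hs
  shb_deriv_neg := shb_deriv_neg s hs

section RG
variable {k : ℕ} (s w2 : ℝ) (hs : 0 < s) (hw2 : wMin s < w2) (hw2' : 2 * w2 ^ 2 < 1)
include hs hw2 hw2'

theorem isOpen_Adom : IsOpen (Adom (k := k) s w2) := isOpen_Adom_of s w2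

/-- (RG1) the apex shape function -/
theorem wA_spec (x : MS k) (hx : x ∈ Adom s w2) :
    wMin s < wA s w2 x ∧ wA s w2 x < w2 ∧
      shF s (wA s w2 x) (‖x.1‖ ^ 2) (‖x.2‖ ^ 2) = 0 :=
  wA_spec_of s w2 (rg1Deps s hs) hw2 hw2' x hx

theorem wA_contDiffOn : ContDiffOn ℝ ∞ (wA (k := k) s w2) (Adom s w2) :=
  wA_contDiffOn_of s w2 (rg1Deps s hs) hw2 hw2'

theorem wA_measurable : Measurable (wA (k := k) s w2) :=
  wA_measurable_of s w2 (rg1Deps s hs) hw2 hw2'

/-- (RG2) the inverse of `shb` -/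
theorem Winv_spec (w : ℝ) (hw : wMin s < w) (hw' : w < w2) :
    Winv s w2 (shb s w) = w ∧ ContDiffAt ℝ ∞ (Winv s w2) (shb s w) :=
  Winv_spec_of s w2 (rg1Deps s hs) hw2 hw2' w hw hw'

end RG

end Crest.Agent.Helper62
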